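import Vale.Agent.P154.KSQ.Star
import Vale.Agent.P154.GW.Ext2

/-!
# P154, general `q`, Kesten-Stigum direction on the Poisson Galton-Watson tree (`0 ≤ lam < 1`, `d lam^2 > 1`)

`VGQ n = ∑' T, probT d n T * (1 - UU ((q - 1) xQ q lam n T))`, `VGQ 0 = 1`, `1 - VGQ (n+1) ≤ exp (- d lam^2 VGQ n)`,
hence `VGQ n ≥ (ρ - 1) / ρ` with `ρ = d lam^2 > 1`; finally `aT ≥ xQ / 2 ≥ (1 - UU ((q - 1) xQ)) / (4 (q - 1))`.
-/

namespace Vale.Agent.P154

open Finset Filter Topology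

variable {q : ℕ} {lam : ℝ}

noncomputable def VGQ (q : ℕ) (d lam : ℝ) (n : ℕ) : ℝ :=
  ∑' T : GT n, probT d n T * (1 - UU (((q : ℝ) - 1) * xQ q lam n T))

theorem yQ_nonneg (hq : 2 ≤ q) (h0 : 0 ≤ lam) (h1 : lam < 1) (n : ℕ) (T : GT n) :
    0 ≤ ((q : ℝ) - 1) * xQ q lam n T := by
  have hq2 : (2 : ℝ) ≤ q := by exact_mod_cast hq
  exact mul_nonneg (by linarith) (xQ_nonneg hq h0 h1 n T)

theorem VGQ_hasSum (hq : 2 ≤ q) (d : ℝ) (hd : 0 ≤ d) (h0 : 0 ≤ lam) (h1 : lam < 1) (n : ℕ) :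
    HasSum (fun T : GT n => probT d n T * (1 - UU (((q : ℝ) - 1) * xQ q lam n T))) (VGQ q d lam n) :=
  (summable_probT_mul d hd n _
    (fun T => by linarith [UU_le_one _ (yQ_nonneg hq h0 h1 n T)])
    (fun T => by linarith [UU_nonneg (((q : ℝ) - 1) * xQ q lam n T)])).hasSum

theorem VGQ_zero (hq : 2 ≤ q) (d lam : ℝ) : VGQ q d lam 0 = 1 := by
  have hq2 : (2 : ℝ) ≤ q := by exact_mod_cast hq
  have hu : Unique (GT 0) := inferInstanceAs (Unique Unit)
  have h := hasSum_unique (fun T : GT 0 => probT d 0 T * (1 - UU (((q : ℝ) - 1) * xQ q lam 0 T)))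
  unfold VGQ
  rw [h.tsum_eq]
  have hx : xQ q lam 0 default = 1 := baseQ_X hq lam default
  rw [hx]
  have hU : UU (((q : ℝ) - 1) * 1) = 0 := by
    unfold UU
    exact max_eq_right (by linarith)
  rw [hU]
  simp [probT]

theorem VGQ_step (hq : 2 ≤ q) (d : ℝ) (hd : 0 ≤ d) (h0 : 0 ≤ lam) (h1 : lam < 1) (n : ℕ) :
    1 - VGQ q d lam (n + 1) ≤ Real.exp (-(d * lam ^ 2) * VGQ q d lam n) := by
  have hl0 : 0 ≤ lam ^ 2 := sq_nonneg lam
  have hl1 : lam ^ 2 ≤ 1 := by nlinarith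
  have hg0 : ∀ s : GT n, 0 ≤ 1 - lam ^ 2 * (1 - UU (((q : ℝ) - 1) * xQ q lam n s)) := by
    intro s
    have a := UU_nonneg (((q : ℝ) - 1) * xQ q lam n s)
    have b := UU_le_one _ (yQ_nonneg hq h0 h1 n s)
    nlinarith
  have e1 : HasSum (fun s : GT n => probT d n s * (1 - lam ^ 2 * (1 - UU (((q : ℝ) - 1) * xQ q lam n s))))
      (1 - lam ^ 2 * VGQ q d lam n) := by
    have := (probT_hasSum d hd n).sub ((VGQ_hasSum hq d hd h0 h1 n).mul_left (lam ^ 2))
    have he : (fun s : GT n => probT d n s * (1 - lam ^ 2 * (1 - UU (((q : ℝ) - 1) * xQ q lam n s)))) =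
        fun s : GT n => probT d n s - lam ^ 2 * (probT d n s * (1 - UU (((q : ℝ) - 1) * xQ q lam n s))) := by
      funext s
      ring
    rw [he]
    exact this
  have e2 := hasSum_sig_gen
    (fun s : GT n => probT d n s * (1 - lam ^ 2 * (1 - UU (((q : ℝ) - 1) * xQ q lam n s))))
    (1 - lam ^ 2 * VGQ q d lam n) d hd
    (fun s => mul_nonneg (probT_nonneg d hd n s) (hg0 s)) e1
  have e4 : HasSum (fun T : GT (n + 1) => probT d (n + 1) T * UU (((q : ℝ) - 1) * xQ q lam (n + 1) T))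
      (1 - VGQ q d lam (n + 1)) := by
    have := (probT_hasSum d hd (n + 1)).sub (VGQ_hasSum hq d hd h0 h1 (n + 1))
    have he : (fun T : GT (n + 1) => probT d (n + 1) T * UU (((q : ℝ) - 1) * xQ q lam (n + 1) T)) =
        fun T : GT (n + 1) =>
          probT d (n + 1) T - probT d (n + 1) T * (1 - UU (((q : ℝ) - 1) * xQ q lam (n + 1) T)) := by
      funext T
      ring
    rw [he]
    exact this
  have hle : ∀ T : GT (n + 1), probT d (n + 1) T * UU (((q : ℝ) - 1) * xQ q lam (n + 1) T) ≤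
      pois d T.1 *
        ∏ j, (probT d n (T.2 j) * (1 - lam ^ 2 * (1 - UU (((q : ℝ) - 1) * xQ q lam n (T.2 j))))) := by
    intro T
    rw [xQ_succ (by omega) h0 h1 n T, Finset.prod_mul_distrib]
    change pois d T.1 * (∏ j, probT d n (T.2 j)) * UU (((q : ℝ) - 1) * XKQ q lam n T.1 T.2) ≤ _
    rw [mul_assoc]
    refine mul_le_mul_of_nonneg_left ?_ (pois_nonneg d hd _)
    refine mul_le_mul_of_nonneg_left ?_ (Finset.prod_nonneg fun j _ => probT_nonneg d hd n _)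
    refine (XKQ_UU hq h0 h1 n T.1 T.2).trans ?_
    refine Finset.prod_le_prod (fun j _ => UU_nonneg _) (fun j _ => ?_)
    have e : ((q : ℝ) - 1) * (lam ^ 2 * xQ q lam n (T.2 j))
        = lam ^ 2 * (((q : ℝ) - 1) * xQ q lam n (T.2 j)) := by ring
    rw [e]
    exact UU_scale (lam ^ 2) _ hl0 hl1 (yQ_nonneg hq h0 h1 n _)
  have key := hasSum_le hle e4 e2
  have h6 : -d * (1 - (1 - lam ^ 2 * VGQ q d lam n)) = -(d * lam ^ 2) * VGQ q d lam n := by ring
  rw [h6] at key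
  exact key

theorem VGQ_low (hq : 2 ≤ q) (d : ℝ) (hd : 0 ≤ d) (h0 : 0 ≤ lam) (h1 : lam < 1) (h2 : 1 < d * lam ^ 2)
    (n : ℕ) : (d * lam ^ 2 - 1) / (d * lam ^ 2) ≤ VGQ q d lam n := by
  set r : ℝ := d * lam ^ 2 with hr
  have hr0 : 0 < r := lt_trans zero_lt_one h2
  induction n with
  | zero =>
    rw [VGQ_zero hq, div_le_one hr0]
    linarith
  | succ n ih =>
    have hstep := VGQ_step hq d hd h0 h1 n
    rw [← hr] at hstep
    have h3 : r - 1 ≤ r * VGQ q d lam n := by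
      have := mul_le_mul_of_nonneg_left ih hr0.le
      rwa [mul_div_cancel₀ _ hr0.ne'] at this
    have h4 : Real.exp (-r * VGQ q d lam n) ≤ Real.exp (-(r - 1)) := by
      apply Real.exp_le_exp.2
      linarith
    have h5 : r ≤ Real.exp (r - 1) := by
      have := Real.add_one_le_exp (r - 1)
      linarith
    have h6 : Real.exp (-(r - 1)) ≤ 1 / r := by
      rw [Real.exp_neg, ← one_div]
      exact one_div_le_one_div_of_le hr0 h5
    have h7 : (r - 1) / r = 1 - 1 / r := by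
      field_simp
    rw [h7]
    linarith

/-- reconstruction above the Kesten-Stigum bound on the Poisson(`d`) tree, any number `q ≥ 2` of colours, `0 ≤ lam < 1` -/
theorem gwQ_reconstruction (hq : 2 ≤ q) (d : ℝ) (hd : 0 < d) (h0 : 0 ≤ lam) (h1 : lam < 1)
    (h2 : 1 < d * lam ^ 2) (n : ℕ) :
    (d * lam ^ 2 - 1) / (4 * ((q : ℝ) - 1) * (d * lam ^ 2)) ≤ aGW q d lam n := by
  have hq2 : (2 : ℝ) ≤ q := by exact_mod_cast hq
  have hq1 : (0 : ℝ) < (q : ℝ) - 1 := by linarith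
  have hqp : (0 : ℝ) < q := by linarith
  have hlow := VGQ_low hq d hd.le h0 h1 h2 n
  have hV := VGQ_hasSum hq d hd.le h0 h1 n
  have hr0 : 0 < d * lam ^ 2 := lt_trans zero_lt_one h2
  have haT1 : ∀ T : GT n, aT q lam n T / q ≤ 1 := by
    intro T
    obtain ⟨ha0, ha2⟩ := aT_sq_leQ hq h0 h1 n T
    have hx := xQ_le_one hq h0 h1 n T
    rw [div_le_one hqp]
    have h3 : aT q lam n T ^ 2 ≤ (q : ℝ) ^ 2 := by
      have : ((q : ℝ) - 1) / 4 * xQ q lam n T ≤ ((q : ℝ) - 1) / 4 * 1 :=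
        mul_le_mul_of_nonneg_left hx (by linarith)
      nlinarith
    exact abs_le_of_sq_le_sq' h3 hqp.le |>.2
  have hsumA' : Summable (fun T : GT n => probT d n T * (aT q lam n T / q)) :=
    summable_probT_mul d hd.le n (fun T => aT q lam n T / q)
      (fun T => div_nonneg (aT_sq_leQ hq h0 h1 n T).1 hqp.le) haT1
  have hsumA : Summable (fun T : GT n => probT d n T * aT q lam n T) := by
    have := hsumA'.mul_left (q : ℝ)
    refine this.congr fun T => ?_
    field_simp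
  have hsumV : Summable (fun T : GT n =>
      (1 / (4 * ((q : ℝ) - 1))) * (probT d n T * (1 - UU (((q : ℝ) - 1) * xQ q lam n T)))) :=
    hV.summable.mul_left _
  have hle : ∀ T : GT n,
      (1 / (4 * ((q : ℝ) - 1))) * (probT d n T * (1 - UU (((q : ℝ) - 1) * xQ q lam n T)))
      ≤ probT d n T * aT q lam n T := by
    intro T
    have hp := probT_nonneg d hd.le n T
    have h3 := aT_geQ hq h0 h1 n T
    have h4 := UU_ge (((q : ℝ) - 1) * xQ q lam n T)
    have h5 : (1 / (4 * ((q : ℝ) - 1))) * (1 - UU (((q : ℝ) - 1) * xQ q lam n T)) ≤ aT q lam n T := by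
      rw [one_div, inv_mul_le_iff₀ (by positivity)]
      nlinarith
    calc (1 / (4 * ((q : ℝ) - 1))) * (probT d n T * (1 - UU (((q : ℝ) - 1) * xQ q lam n T)))
        = probT d n T * ((1 / (4 * ((q : ℝ) - 1))) * (1 - UU (((q : ℝ) - 1) * xQ q lam n T))) := by ring
      _ ≤ probT d n T * aT q lam n T := mul_le_mul_of_nonneg_left h5 hp
  have hts := Summable.tsum_le_tsum hle hsumV hsumA
  rw [tsum_mul_left, hV.tsum_eq] at hts
  unfold aGW
  have h8 : (d * lam ^ 2 - 1) / (4 * ((q : ℝ) - 1) * (d * lam ^ 2))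
      = (1 / (4 * ((q : ℝ) - 1))) * ((d * lam ^ 2 - 1) / (d * lam ^ 2)) := by
    field_simp
  rw [h8]
  have h9 : (1 / (4 * ((q : ℝ) - 1))) * ((d * lam ^ 2 - 1) / (d * lam ^ 2))
      ≤ (1 / (4 * ((q : ℝ) - 1))) * VGQ q d lam n :=
    mul_le_mul_of_nonneg_left hlow (by positivity)
  linarith

end Vale.Agent.P154
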