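import Vale.Agent.P154.KS.D2

/-!
# P154, the noiseless channel `lam = 1`, any number `q ≥ 1` of colours

Same argument as for three colours: `likT q 1 n T i η ∈ {0, 1}`, and on a tree reaching depth `n` at most one `i` has `likT q 1 n T i η = 1`; so
`aT q 1 n T = (1 - 1/q) * aliveT n T`.
-/

namespace Vale.Agent.P154

open Finset Filter Topology

variable {q : ℕ}

theorem potts_oneQ (i j : Fin q) : potts q 1 i j = if i = j then 1 else 0 := by
  unfold potts
  simp

theorem likT_one_succQ (n : ℕ) (T : GT (n + 1)) (i : Fin q) (η : ConfT q (n + 1) T) :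
    likT q 1 (n + 1) T i η = ∏ k : Fin T.1, likT q 1 n (T.2 k) i (η k) := by
  change ∏ k : Fin T.1, ∑ j : Fin q, potts q 1 i j * likT q 1 n (T.2 k) j (η k) = _
  refine Finset.prod_congr rfl fun k _ => ?_
  simp [potts_oneQ]

theorem likT_one_01Q : ∀ (n : ℕ) (T : GT n) (i : Fin q) (η : ConfT q n T),
    likT q 1 n T i η = 0 ∨ likT q 1 n T i η = 1
  | 0, _, i, η => by
    change (if (show Fin q from η) = i then (1 : ℝ) else 0) = 0 ∨
      (if (show Fin q from η) = i then (1 : ℝ) else 0) = 1
    split_ifs <;> simp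
  | n + 1, T, i, η => by
    rw [likT_one_succQ]
    by_cases h : ∀ k, likT q 1 n (T.2 k) i (η k) = 1
    · right
      exact Finset.prod_eq_one fun k _ => h k
    · left
      push Not at h
      obtain ⟨k, hk⟩ := h
      exact Finset.prod_eq_zero (Finset.mem_univ k)
        ((likT_one_01Q n (T.2 k) i (η k)).resolve_right hk)

theorem likT_one_disjQ : ∀ (n : ℕ) (T : GT n), aliveT n T = 1 → ∀ (i j : Fin q), i ≠ j →
    ∀ η : ConfT q n T, likT q 1 n T i η * likT q 1 n T j η = 0
  | 0, _, _, i, j, hij, η => by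
    change (if (show Fin q from η) = i then (1 : ℝ) else 0) *
      (if (show Fin q from η) = j then (1 : ℝ) else 0) = 0
    by_cases h1 : (show Fin q from η) = i
    · have h2 : ¬ (show Fin q from η) = j := fun h2 => hij (h1.symm.trans h2)
      rw [if_neg h2, mul_zero]
    · rw [if_neg h1, zero_mul]
  | n + 1, T, h, i, j, hij, η => by
    obtain ⟨k, hk⟩ := aliveT_succ_one_D1 n T h
    rw [likT_one_succQ, likT_one_succQ, ← Finset.prod_mul_distrib]
    exact Finset.prod_eq_zero (Finset.mem_univ k) (likT_one_disjQ n (T.2 k) hk i j hij (η k))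

theorem aT_one_aliveQ (hq : 0 < q) (n : ℕ) (T : GT n) (h : aliveT n T = 1) :
    aT q 1 n T = 1 - 1 / (q : ℝ) := by
  have hqp : (0 : ℝ) < q := by exact_mod_cast hq
  have hq1 : (1 : ℝ) ≤ q := by exact_mod_cast hq
  have key : ∀ η : ConfT q n T,
      margT q 1 n T η * ((1 / 2) * ∑ i : Fin q, |postT q 1 n T i η - 1 / (q : ℝ)|)
        = (1 - 1 / (q : ℝ)) * margT q 1 n T η := by
    intro η
    by_cases hall : ∀ i, likT q 1 n T i η = 0
    · have hm : margT q 1 n T η = 0 := by
        unfold margT
        exact Finset.sum_eq_zero fun i _ => by rw [hall i, mul_zero]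
      rw [hm, zero_mul, mul_zero]
    · push Not at hall
      obtain ⟨i0, hi0⟩ := hall
      have h1 : likT q 1 n T i0 η = 1 := (likT_one_01Q n T i0 η).resolve_left hi0
      have hl : ∀ i, likT q 1 n T i η = if i = i0 then 1 else 0 := by
        intro i
        by_cases hi : i = i0
        · rw [if_pos hi, hi, h1]
        · rw [if_neg hi]
          have := likT_one_disjQ n T h i0 i (fun hc => hi hc.symm) η
          rw [h1, one_mul] at this
          exact this
      have hm : margT q 1 n T η = 1 / (q : ℝ) := by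
        unfold margT
        simp [hl]
      have hp : ∀ i, |postT q 1 n T i η - 1 / (q : ℝ)|
          = 1 / (q : ℝ) + (1 - 2 / (q : ℝ)) * (if i = i0 then 1 else 0) := by
        intro i
        unfold postT
        rw [hm, hl i]
        by_cases hi : i = i0
        · rw [if_pos hi, mul_one, mul_one, div_self (by positivity)]
          rw [abs_of_nonneg (by rw [sub_nonneg, div_le_one hqp]; exact hq1)]
          ring
        · rw [if_neg hi, mul_zero, mul_zero, zero_div, zero_sub, abs_neg,
            abs_of_nonneg (by positivity), add_zero]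
      rw [Finset.sum_congr rfl (fun i _ => hp i), Finset.sum_add_distrib, ← Finset.mul_sum, hm]
      simp
      field_simp
      ring
  unfold aT
  rw [Finset.sum_congr rfl (fun η _ => key η), ← Finset.mul_sum, margT_sum q hq 1 n T, mul_one]

theorem reg_oneQ (hq : 0 < q) (d : ℕ) (hd : 1 ≤ d) (n : ℕ) : aTV q d 1 n = 1 - 1 / (q : ℝ) := by
  rw [← aT_regT]
  exact aT_one_aliveQ hq n _ (aliveT_regT d hd n)

theorem aT_one_eqQ (hq : 0 < q) (n : ℕ) (T : GT n) : aT q 1 n T = (1 - 1 / (q : ℝ)) * aliveT n T := by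
  rcases aliveT_zero_or_one n T with h | h
  · rw [aT_dead q hq 1 n T h, h, mul_zero]
  · rw [aT_one_aliveQ hq n T h, h, mul_one]

theorem gw_oneQ (hq : 0 < q) (d : ℝ) (hd : 1 < d) (n : ℕ) :
    (1 - 1 / (q : ℝ)) * ((d - 1) / d) ≤ aGW q d 1 n := by
  have hqp : (0 : ℝ) < q := by exact_mod_cast hq
  have hq1 : (1 : ℝ) ≤ q := by exact_mod_cast hq
  have h : aGW q d 1 n = (1 - 1 / (q : ℝ)) * SG d n := by
    unfold aGW SG
    rw [← tsum_mul_left]
    refine tsum_congr fun T => ?_
    rw [aT_one_eqQ hq]
    ring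
  rw [h]
  exact mul_le_mul_of_nonneg_left (SG_low d hd n)
    (by rw [sub_nonneg, div_le_one hqp]; exact hq1)

end Vale.Agent.P154
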