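import Vale.Agent.P154.KSQ.Reg
import Vale.Agent.P154.KSQ.GW
import Vale.Agent.P154.KSQ.One

/-!
# P154, any number `q ≥ 2` of colours, `0 ≤ lam ≤ 1`: reconstruction above the Kesten-Stigum bound, both tree models
-/

namespace Vale.Agent.P154

open Finset Filter Topology

variable {q : ℕ}

theorem regQ_rec_all (hq : 2 ≤ q) (d : ℕ) (lam : ℝ) (h0 : 0 ≤ lam) (h1 : lam ≤ 1)
    (h2 : 1 < (d : ℝ) * lam ^ 2) : ∃ c : ℝ, 0 < c ∧ ∀ n, c ≤ aTV q d lam n := by
  have hq2 : (2 : ℝ) ≤ q := by exact_mod_cast hq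
  have hq1 : (0 : ℝ) < (q : ℝ) - 1 := by linarith
  have hr0 : (0 : ℝ) < (d : ℝ) * lam ^ 2 := lt_trans zero_lt_one h2
  rcases lt_or_eq_of_le h1 with h | h
  · exact ⟨((d : ℝ) * lam ^ 2 - 1) / (4 * ((q : ℝ) - 1) * ((d : ℝ) * lam ^ 2)),
      div_pos (by linarith) (by positivity), fun n => regQ_reconstruction hq d h0 h h2 n⟩
  · subst h
    have hd : 1 ≤ d := by
      rcases Nat.eq_zero_or_pos d with h | h
      · subst h
        norm_num at h2
      · exact h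
    refine ⟨1 - 1 / (q : ℝ), ?_, fun n => (reg_oneQ (by omega) d hd n).ge⟩
    rw [sub_pos, div_lt_one (by linarith)]
    linarith

theorem gwQ_rec_all (hq : 2 ≤ q) (d lam : ℝ) (hd : 0 < d) (h0 : 0 ≤ lam) (h1 : lam ≤ 1)
    (h2 : 1 < d * lam ^ 2) : ∃ c : ℝ, 0 < c ∧ ∀ n, c ≤ aGW q d lam n := by
  have hq2 : (2 : ℝ) ≤ q := by exact_mod_cast hq
  have hq1 : (0 : ℝ) < (q : ℝ) - 1 := by linarith
  have hr0 : (0 : ℝ) < d * lam ^ 2 := lt_trans zero_lt_one h2
  rcases lt_or_eq_of_le h1 with h | h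
  · exact ⟨(d * lam ^ 2 - 1) / (4 * ((q : ℝ) - 1) * (d * lam ^ 2)),
      div_pos (by linarith) (by positivity), fun n => gwQ_reconstruction hq d hd h0 h h2 n⟩
  · subst h
    have hd1 : 1 < d := by
      have : d * (1 : ℝ) ^ 2 = d := by ring
      rwa [this] at h2
    refine ⟨(1 - 1 / (q : ℝ)) * ((d - 1) / d), ?_, fun n => gw_oneQ (by omega) d hd1 n⟩
    apply mul_pos
    · rw [sub_pos, div_lt_one (by linarith)]
      linarith
    · exact div_pos (by linarith) hd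

end Vale.Agent.P154
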