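import Vale.Agent.P154.Q4.CertQ

/-!
# P154, general `q`: lower bounds for the second moment of a combined experiment

For good experiments `(w, e)`, `(v, f)` on `q ≥ 2` colours, with `x = XQ w e`, `x' = XQ v f`, `x''` the second moment of the combination:
* `merge_X_monoQ : x ≤ x''` (estimator `a`),
* `merge_X_lowQ : x + x' - 2 (q - 1) x x' ≤ x''` (estimator `a + b`, Cauchy-Schwarz for the square of the scalar product).
Both come from `Z * ∑ (e'' i) ^ 2 ≥ 2 ∑ u i * (Z * e'' i) - Z * ∑ (u i) ^ 2` for every vector `u`.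
-/

namespace Vale.Agent.P154

open Finset

variable {q : ℕ} {ι κ : Type} [Fintype ι] [Fintype κ] {w : ι → ℝ} {e : ι → Fin q → ℝ}
  {v : κ → ℝ} {f : κ → Fin q → ℝ}

theorem Z_mul_mgQ (a b : Fin q → ℝ) (hZ : 0 < ZQ a b) (i : Fin q) :
    ZQ a b * mgQ a b i = (1 + a i) * (1 + b i) - ZQ a b := by
  unfold mgQ
  have := hZ.ne'
  field_simp

theorem est_bound (a b u : Fin q → ℝ) (hZ : 0 < ZQ a b) :
    2 * ∑ i, u i * ((1 + a i) * (1 + b i) - ZQ a b) - ZQ a b * ∑ i, u i ^ 2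
      ≤ ZQ a b * ∑ i, mgQ a b i ^ 2 := by
  rw [Finset.mul_sum, Finset.mul_sum, Finset.mul_sum, ← Finset.sum_sub_distrib]
  refine Finset.sum_le_sum fun i _ => ?_
  rw [← Z_mul_mgQ a b hZ i]
  nlinarith [mul_nonneg hZ.le (sq_nonneg (mgQ a b i - u i))]

theorem sum_a_est (a b : Fin q → ℝ) (ha : ∑ i, a i = 0) (Z : ℝ) :
    ∑ i, a i * ((1 + a i) * (1 + b i) - Z)
      = ∑ i, a i ^ 2 + ∑ i, a i * b i + ∑ i, a i ^ 2 * b i := by
  have e1 : ∀ i, a i * ((1 + a i) * (1 + b i) - Z)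
      = (1 - Z) * a i + a i ^ 2 + a i * b i + a i ^ 2 * b i := fun i => by ring
  simp only [e1, Finset.sum_add_distrib, ← Finset.mul_sum, ha]
  ring

theorem sum_b_est (a b : Fin q → ℝ) (hb : ∑ i, b i = 0) (Z : ℝ) :
    ∑ i, b i * ((1 + a i) * (1 + b i) - Z)
      = ∑ i, b i ^ 2 + ∑ i, a i * b i + ∑ i, a i * b i ^ 2 := by
  have e1 : ∀ i, b i * ((1 + a i) * (1 + b i) - Z)
      = (1 - Z) * b i + b i ^ 2 + a i * b i + a i * b i ^ 2 := fun i => by ring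
  simp only [e1, Finset.sum_add_distrib, ← Finset.mul_sum, hb]
  ring

/-- pointwise bound with the estimator `a` -/
theorem pt_mono (hq : 0 < q) (a b : Fin q → ℝ) (ha : ∑ i, a i = 0) (hb : ∑ i, b i = 0)
    (hZ : 0 < ZQ a b) :
    ∑ i, a i ^ 2 + ∑ i, a i * ((2 - (∑ j, a j ^ 2) / q) * b i + 2 * a i * b i)
      ≤ ZQ a b * ∑ i, mgQ a b i ^ 2 := by
  refine le_trans (le_of_eq ?_) (est_bound a b a hZ)
  rw [sum_a_est a b ha, ZQ_eq hq a b ha hb]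
  have e1 : ∀ i, a i * ((2 - (∑ j, a j ^ 2) / q) * b i + 2 * a i * b i)
      = (2 - (∑ j, a j ^ 2) / q) * (a i * b i) + 2 * (a i ^ 2 * b i) := fun i => by ring
  simp only [e1, Finset.sum_add_distrib, ← Finset.mul_sum]
  ring

/-- pointwise bound with the estimator `a + b` -/
theorem pt_low (hq : 0 < q) (a b : Fin q → ℝ) (ha : ∑ i, a i = 0) (hb : ∑ i, b i = 0)
    (hZ : 0 < ZQ a b) :
    ∑ i, a i ^ 2 + (1 - 2 * (∑ i, a i ^ 2) / q) * ∑ i, b i ^ 2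
      + ∑ i, a i * ((2 - (∑ j, a j ^ 2) / q) * b i - b i * (∑ j, b j ^ 2) / q + 2 * a i * b i
          + 2 * b i ^ 2)
      ≤ ZQ a b * ∑ i, mgQ a b i ^ 2 := by
  have hq' : (0 : ℝ) < q := by positivity
  refine le_trans ?_ (est_bound a b (fun i => a i + b i) hZ)
  have e0 : ∑ i, (a i + b i) * ((1 + a i) * (1 + b i) - ZQ a b)
      = ∑ i, a i * ((1 + a i) * (1 + b i) - ZQ a b) + ∑ i, b i * ((1 + a i) * (1 + b i) - ZQ a b) := by
    rw [← Finset.sum_add_distrib]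
    exact Finset.sum_congr rfl fun i _ => by ring
  have e2 : ∑ i, (a i + b i) ^ 2 = ∑ i, a i ^ 2 + 2 * ∑ i, a i * b i + ∑ i, b i ^ 2 := by
    have : ∀ i, (a i + b i) ^ 2 = a i ^ 2 + 2 * (a i * b i) + b i ^ 2 := fun i => by ring
    simp only [this, Finset.sum_add_distrib, ← Finset.mul_sum]
  rw [e0, sum_a_est a b ha, sum_b_est a b hb, e2, ZQ_eq hq a b ha hb]
  have e1 : ∀ i, a i * ((2 - (∑ j, a j ^ 2) / q) * b i - b i * (∑ j, b j ^ 2) / q + 2 * a i * b i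
      + 2 * b i ^ 2)
      = (2 - (∑ j, a j ^ 2) / q - (∑ j, b j ^ 2) / q) * (a i * b i) + 2 * (a i ^ 2 * b i)
        + 2 * (a i * b i ^ 2) := fun i => by ring
  simp only [e1, Finset.sum_add_distrib, ← Finset.mul_sum]
  have cs : (∑ i, a i * b i) ^ 2 ≤ (∑ i, a i ^ 2) * ∑ i, b i ^ 2 :=
    Finset.sum_mul_sq_le_sq_mul_sq _ _ _
  set s := ∑ i, a i * b i
  set A := ∑ i, a i ^ 2
  set B := ∑ i, b i ^ 2
  set T1 := ∑ i, a i ^ 2 * b i
  set T2 := ∑ i, a i * b i ^ 2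
  have h3 : 2 * s ^ 2 / q ≤ 2 * (A * B) / q := by
    apply div_le_div_of_nonneg_right _ hq'.le
    linarith
  have h4 : A + (1 - 2 * A / q) * B + ((2 - A / q - B / q) * s + 2 * T1 + 2 * T2)
      = 2 * (A + s + T1 + (B + s + T2)) - (1 + s / q) * (A + 2 * s + B) + 2 * s ^ 2 / q
        - 2 * (A * B) / q := by
    field_simp
    ring
  rw [h4]
  linarith

theorem GoodQ.sq_eq (h : GoodQ q w e) (i j : Fin q) :
    ∑ η, w η * e η i ^ 2 = ∑ η, w η * e η j ^ 2 := by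
  have := h.sym (Equiv.swap i j) (fun a => a i ^ 2)
  simpa using this.symm

theorem GoodQ.cub_eq (h : GoodQ q w e) (i j : Fin q) :
    ∑ η, w η * (e η i * ∑ k, e η k ^ 2) = ∑ η, w η * (e η j * ∑ k, e η k ^ 2) := by
  have := h.sym (Equiv.swap i j) (fun a => a i * ∑ k, a k ^ 2)
  have e1 : ∀ η, ∑ k, e η ((Equiv.swap i j) k) ^ 2 = ∑ k, e η k ^ 2 := fun η =>
    Equiv.sum_comp (Equiv.swap i j) (fun k => e η k ^ 2)
  simp only [e1, Equiv.swap_apply_left] at this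
  exact this.symm

theorem GoodQ.cub_zero (h : GoodQ q w e) (i : Fin q) :
    ∑ η, w η * (e η i * ∑ k, e η k ^ 2) = 0 := by
  have h1 : ∑ j : Fin q, ∑ η, w η * (e η j * ∑ k, e η k ^ 2) = 0 := by
    rw [Finset.sum_comm]
    refine Finset.sum_eq_zero fun η _ => ?_
    rw [← Finset.mul_sum, ← Finset.sum_mul, h.zero η, zero_mul, mul_zero]
  have h2 : ∑ j : Fin q, ∑ η, w η * (e η j * ∑ k, e η k ^ 2)
      = (q : ℝ) * ∑ η, w η * (e η i * ∑ k, e η k ^ 2) := by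
    rw [Finset.sum_congr rfl (fun j _ => h.cub_eq j i)]
    simp
  have hq : (q : ℝ) ≠ 0 := by
    have : 0 < q := Fin.pos i
    positivity
  rw [h2] at h1
  exact (mul_eq_zero.1 h1).resolve_left hq

/-- the terms that are linear in `a` with coefficients depending on one coordinate of `b` average to zero -/
theorem GoodQ.lin_zero (h : GoodQ q v f) (a : Fin q → ℝ) (ha : ∑ i, a i = 0) (c1 c2 c3 : ℝ) :
    ∑ y, v y * ∑ i, a i * (c1 * f y i - f y i * (∑ j, f y j ^ 2) / c2 + 2 * a i * f y i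
      + c3 * f y i ^ 2) = 0 := by
  have e1 : ∀ y, v y * ∑ i, a i * (c1 * f y i - f y i * (∑ j, f y j ^ 2) / c2 + 2 * a i * f y i
      + c3 * f y i ^ 2)
      = ∑ i, ((a i * c1 + 2 * a i ^ 2) * (v y * f y i)
          - a i / c2 * (v y * (f y i * ∑ j, f y j ^ 2)) + a i * c3 * (v y * f y i ^ 2)) := by
    intro y
    rw [Finset.mul_sum]
    refine Finset.sum_congr rfl fun i _ => ?_
    ring
  simp only [e1]
  rw [Finset.sum_comm]
  have e2 : ∀ i, ∑ y, ((a i * c1 + 2 * a i ^ 2) * (v y * f y i)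
      - a i / c2 * (v y * (f y i * ∑ j, f y j ^ 2)) + a i * c3 * (v y * f y i ^ 2))
      = a i * c3 * ∑ y, v y * f y i ^ 2 := by
    intro i
    rw [Finset.sum_add_distrib, Finset.sum_sub_distrib, ← Finset.mul_sum, ← Finset.mul_sum,
      ← Finset.mul_sum, h.mean_zero i, h.cub_zero i]
    ring
  simp only [e2]
  by_cases hq : q = 0
  · subst hq
    simp
  · have i0 : Fin q := ⟨0, Nat.pos_of_ne_zero hq⟩
    have e3 : ∀ i, a i * c3 * ∑ y, v y * f y i ^ 2 = a i * (c3 * ∑ y, v y * f y i0 ^ 2) := by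
      intro i
      rw [h.sq_eq i i0]
      ring
    simp only [e3]
    rw [← Finset.sum_mul, ha, zero_mul]

theorem XQ_eq_sum (w : ι → ℝ) (e : ι → Fin q → ℝ) :
    XQ w e = (∑ η, w η * ∑ i, e η i ^ 2) / ((q : ℝ) * ((q : ℝ) - 1)) := by
  unfold XQ EQ alQ
  rw [Finset.sum_div]
  exact Finset.sum_congr rfl fun η _ => by ring

theorem XQ_merge_eq (w : ι → ℝ) (e : ι → Fin q → ℝ) (v : κ → ℝ) (f : κ → Fin q → ℝ) :
    XQ (wMQ w e v f) (eMQ e f)
      = (∑ x, w x * ∑ y, v y * (ZQ (e x) (f y) * ∑ i, mgQ (e x) (f y) i ^ 2))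
          / ((q : ℝ) * ((q : ℝ) - 1)) := by
  unfold XQ
  rw [EQ_merge, Finset.sum_div]
  refine Finset.sum_congr rfl fun x _ => ?_
  rw [mul_div_assoc, Finset.sum_div]
  congr 1
  refine Finset.sum_congr rfl fun y _ => ?_
  unfold KQ alQ
  ring

theorem merge_X_monoQ (hq : 2 ≤ q) (h : GoodQ q w e) (h' : GoodQ q v f) (hs : ∀ η i, -1 < f η i) :
    XQ w e ≤ XQ (wMQ w e v f) (eMQ e f) := by
  have hq0 : 0 < q := by omega
  have hq2 : (2 : ℝ) ≤ q := by exact_mod_cast hq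
  have hden : (0 : ℝ) < (q : ℝ) * ((q : ℝ) - 1) := by nlinarith
  rw [XQ_merge_eq, XQ_eq_sum]
  apply div_le_div_of_nonneg_right _ hden.le
  refine Finset.sum_le_sum fun x _ => mul_le_mul_of_nonneg_left ?_ (h.pos x).le
  have hpt : ∀ y, v y * (∑ i, e x i ^ 2 + ∑ i, e x i * ((2 - (∑ j, e x j ^ 2) / q) * f y i
      + 2 * e x i * f y i)) ≤ v y * (ZQ (e x) (f y) * ∑ i, mgQ (e x) (f y) i ^ 2) := fun y =>
    mul_le_mul_of_nonneg_left (pt_mono hq0 _ _ (h.zero x) (h'.zero y)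
      (ZQ_pos hq0 _ _ (h.zero x) (h.ge x) (hs y))) (h'.pos y).le
  refine le_trans (le_of_eq ?_) (Finset.sum_le_sum fun y _ => hpt y)
  have hz := h'.lin_zero (e x) (h.zero x) (2 - (∑ j, e x j ^ 2) / q) 0 0
  simp only [div_zero, sub_zero, zero_mul, add_zero] at hz
  have e1 : ∀ y, v y * (∑ i, e x i ^ 2 + ∑ i, e x i * ((2 - (∑ j, e x j ^ 2) / q) * f y i
      + 2 * e x i * f y i))
      = v y * ∑ i, e x i ^ 2 + v y * ∑ i, e x i * ((2 - (∑ j, e x j ^ 2) / q) * f y i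
      + 2 * e x i * f y i) := fun y => by ring
  simp only [e1, Finset.sum_add_distrib]
  rw [hz, ← Finset.sum_mul, h'.tot, one_mul, add_zero]

theorem merge_X_lowQ (hq : 2 ≤ q) (h : GoodQ q w e) (h' : GoodQ q v f) (hs : ∀ η i, -1 < f η i) :
    XQ w e + XQ v f - 2 * ((q : ℝ) - 1) * XQ w e * XQ v f ≤ XQ (wMQ w e v f) (eMQ e f) := by
  have hq0 : 0 < q := by omega
  have hq2 : (2 : ℝ) ≤ q := by exact_mod_cast hq
  have hq' : (q : ℝ) ≠ 0 := by positivity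
  have hq1 : (q : ℝ) - 1 ≠ 0 := by
    intro hc
    linarith
  have hden : (0 : ℝ) < (q : ℝ) * ((q : ℝ) - 1) := by nlinarith
  set Bb := ∑ y, v y * ∑ i, f y i ^ 2 with hBb
  have hx : ∀ x, ∑ i, e x i ^ 2 + (1 - 2 * (∑ i, e x i ^ 2) / q) * Bb
      ≤ ∑ y, v y * (ZQ (e x) (f y) * ∑ i, mgQ (e x) (f y) i ^ 2) := by
    intro x
    have hpt : ∀ y, v y * (∑ i, e x i ^ 2 + (1 - 2 * (∑ i, e x i ^ 2) / q) * ∑ i, f y i ^ 2
        + ∑ i, e x i * ((2 - (∑ j, e x j ^ 2) / q) * f y i - f y i * (∑ j, f y j ^ 2) / q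
          + 2 * e x i * f y i + 2 * f y i ^ 2))
        ≤ v y * (ZQ (e x) (f y) * ∑ i, mgQ (e x) (f y) i ^ 2) := fun y =>
      mul_le_mul_of_nonneg_left (pt_low hq0 _ _ (h.zero x) (h'.zero y)
        (ZQ_pos hq0 _ _ (h.zero x) (h.ge x) (hs y))) (h'.pos y).le
    refine le_trans (le_of_eq ?_) (Finset.sum_le_sum fun y _ => hpt y)
    have hz := h'.lin_zero (e x) (h.zero x) (2 - (∑ j, e x j ^ 2) / q) q 2
    have e1 : ∀ y, v y * (∑ i, e x i ^ 2 + (1 - 2 * (∑ i, e x i ^ 2) / q) * ∑ i, f y i ^ 2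
        + ∑ i, e x i * ((2 - (∑ j, e x j ^ 2) / q) * f y i - f y i * (∑ j, f y j ^ 2) / q
          + 2 * e x i * f y i + 2 * f y i ^ 2))
        = v y * ∑ i, e x i ^ 2 + (1 - 2 * (∑ i, e x i ^ 2) / q) * (v y * ∑ i, f y i ^ 2)
          + v y * ∑ i, e x i * ((2 - (∑ j, e x j ^ 2) / q) * f y i - f y i * (∑ j, f y j ^ 2) / q
          + 2 * e x i * f y i + 2 * f y i ^ 2) := fun y => by ring
    simp only [e1, Finset.sum_add_distrib]
    rw [hz, ← Finset.sum_mul, h'.tot, one_mul, ← Finset.mul_sum, add_zero]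
  rw [XQ_merge_eq, XQ_eq_sum, XQ_eq_sum, ← hBb]
  have hsum : ∑ x, w x * (∑ i, e x i ^ 2 + (1 - 2 * (∑ i, e x i ^ 2) / q) * Bb)
      ≤ ∑ x, w x * ∑ y, v y * (ZQ (e x) (f y) * ∑ i, mgQ (e x) (f y) i ^ 2) :=
    Finset.sum_le_sum fun x _ => mul_le_mul_of_nonneg_left (hx x) (h.pos x).le
  have e2 : ∑ x, w x * (∑ i, e x i ^ 2 + (1 - 2 * (∑ i, e x i ^ 2) / q) * Bb)
      = (∑ x, w x * ∑ i, e x i ^ 2) + Bb - 2 * (∑ x, w x * ∑ i, e x i ^ 2) * Bb / q := by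
    have e3 : ∀ x, w x * (∑ i, e x i ^ 2 + (1 - 2 * (∑ i, e x i ^ 2) / q) * Bb)
        = (1 - 2 * Bb / q) * (w x * ∑ i, e x i ^ 2) + w x * Bb := fun x => by ring
    simp only [e3, Finset.sum_add_distrib]
    rw [← Finset.mul_sum, ← Finset.sum_mul, h.tot]
    ring
  rw [e2] at hsum
  set Aa := ∑ x, w x * ∑ i, e x i ^ 2
  have e4 : Aa / ((q : ℝ) * ((q : ℝ) - 1)) + Bb / ((q : ℝ) * ((q : ℝ) - 1))
      - 2 * ((q : ℝ) - 1) * (Aa / ((q : ℝ) * ((q : ℝ) - 1))) * (Bb / ((q : ℝ) * ((q : ℝ) - 1)))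
      = (Aa + Bb - 2 * Aa * Bb / q) / ((q : ℝ) * ((q : ℝ) - 1)) := by
    field_simp
  rw [e4]
  exact div_le_div_of_nonneg_right hsum hden.le

end Vale.Agent.P154
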