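import Vale.Agent.P154.KSQ.Star
import Vale.Agent.P154.GW.Reg

/-!
# P154, general `q`, Kesten-Stigum direction on the regular tree (`0 ≤ lam < 1`, `d lam^2 > 1`)

`y n = (q - 1) xQ q lam n (regT d n)`, `y 0 = q - 1 ≥ 1`, `UU (y (n+1)) ≤ UU (lam^2 y n) ^ d`; same induction as for three colours.
-/

namespace Vale.Agent.P154

open Finset

variable {q : ℕ} {lam : ℝ}

theorem seq_lowQ (d : ℕ) (s : ℝ) (x : ℕ → ℝ) (hs0 : 0 ≤ s) (hs1 : s ≤ 1) (hρ : 1 < (d : ℝ) * s)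
    (h0 : 1 ≤ x 0) (hs : ∀ n, UU (x (n + 1)) ≤ UU (s * x n) ^ d) (n : ℕ) :
    ((d : ℝ) * s - 1) / (2 * ((d : ℝ) * s)) ≤ x n := by
  set ρ : ℝ := (d : ℝ) * s with hρdef
  have hρ0 : 0 < ρ := by linarith
  set δ : ℝ := (ρ - 1) / (2 * ρ) with hδ
  have hδ0 : 0 ≤ δ := div_nonneg (by linarith) (by linarith)
  have hδρ : 2 * ρ * δ = ρ - 1 := by
    rw [hδ]; field_simp
  have hδ1 : 2 * δ < 1 := by
    by_contra hc
    have hc' : 1 ≤ 2 * δ := not_lt.mp hc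
    nlinarith
  induction n with
  | zero => linarith
  | succ n ih =>
    set t : ℝ := 2 * (s * δ) with ht
    have ht0 : 0 ≤ t := by positivity
    have ht1 : t ≤ 1 := by
      have : s * δ ≤ 1 * δ := mul_le_mul_of_nonneg_right hs1 hδ0
      rw [ht]; linarith
    have hU : UU (s * δ) = 1 - t := by
      unfold UU
      rw [max_eq_left (by rw [ht] at ht1; linarith)]
    have h1 : UU (s * x n) ≤ 1 - t := by
      rw [← hU]
      exact UU_anti _ _ (mul_le_mul_of_nonneg_left ih hs0)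
    have h2 : UU (s * x n) ^ d ≤ (1 - t) ^ d := pow_le_pow_left₀ (UU_nonneg _) h1 d
    have h3 : (1 - t) ^ d * (1 + t) ^ d ≤ 1 := by
      rw [← mul_pow]
      apply pow_le_one₀
      · exact mul_nonneg (by linarith) (by linarith)
      · nlinarith [sq_nonneg t]
    have h4 : 1 + (d : ℝ) * t ≤ (1 + t) ^ d := one_add_mul_le_pow (by linarith) d
    have h5 : 1 + (d : ℝ) * t = ρ := by
      rw [ht, hρdef]
      have : (d : ℝ) * (2 * (s * δ)) = 2 * ((d : ℝ) * s) * δ := by ring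
      rw [this, ← hρdef, hδρ]; ring
    have hP0 : 0 ≤ (1 - t) ^ d := pow_nonneg (by linarith) d
    have h6 : (1 - t) ^ d * ρ ≤ 1 := by
      calc (1 - t) ^ d * ρ ≤ (1 - t) ^ d * (1 + t) ^ d := by
            apply mul_le_mul_of_nonneg_left _ hP0
            rw [← h5]; exact h4
        _ ≤ 1 := h3
    have h7 : 1 - 2 * x (n + 1) ≤ (1 - t) ^ d := (UU_ge _).trans ((hs n).trans h2)
    have h8 : (1 - 2 * x (n + 1)) * ρ ≤ 1 :=
      (mul_le_mul_of_nonneg_right h7 hρ0.le).trans h6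
    rw [hδ, div_le_iff₀ (by linarith)]
    nlinarith

theorem xregQ_UU (hq : 2 ≤ q) (d : ℕ) (h0 : 0 ≤ lam) (h1 : lam < 1) (n : ℕ) :
    UU (((q : ℝ) - 1) * xQ q lam (n + 1) (regT d (n + 1)))
      ≤ UU (lam ^ 2 * (((q : ℝ) - 1) * xQ q lam n (regT d n))) ^ d := by
  rw [xQ_succ (by omega) h0 h1 n (regT d (n + 1))]
  have h := XKQ_UU hq h0 h1 n d (fun _ => regT d n)
  rw [Finset.prod_const, Finset.card_univ, Fintype.card_fin] at h
  have e : lam ^ 2 * (((q : ℝ) - 1) * xQ q lam n (regT d n))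
      = ((q : ℝ) - 1) * (lam ^ 2 * xQ q lam n (regT d n)) := by ring
  rw [e]
  exact h

/-- reconstruction above the Kesten-Stigum bound on the `d`-ary tree, any number `q ≥ 2` of colours, `0 ≤ lam < 1` -/
theorem regQ_reconstruction (hq : 2 ≤ q) (d : ℕ) (h0 : 0 ≤ lam) (h1 : lam < 1)
    (h2 : 1 < (d : ℝ) * lam ^ 2) (n : ℕ) :
    ((d : ℝ) * lam ^ 2 - 1) / (4 * ((q : ℝ) - 1) * ((d : ℝ) * lam ^ 2)) ≤ aTV q d lam n := by
  have hq2 : (2 : ℝ) ≤ q := by exact_mod_cast hq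
  have hq1 : (0 : ℝ) < (q : ℝ) - 1 := by linarith
  have hr0 : (0 : ℝ) < (d : ℝ) * lam ^ 2 := lt_trans zero_lt_one h2
  have hs1 : lam ^ 2 ≤ 1 := by nlinarith
  have hx := seq_lowQ d (lam ^ 2) (fun n => ((q : ℝ) - 1) * xQ q lam n (regT d n)) (sq_nonneg lam) hs1 h2
    (by
      change 1 ≤ ((q : ℝ) - 1) * xQ q lam 0 (regT d 0)
      rw [baseQ_X hq lam (regT d 0)]
      linarith)
    (fun n => xregQ_UU hq d h0 h1 n) n
  have ha := aT_geQ hq h0 h1 n (regT d n)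
  rw [aT_regT] at ha
  have hx' : ((d : ℝ) * lam ^ 2 - 1) / (2 * ((d : ℝ) * lam ^ 2)) ≤ ((q : ℝ) - 1) * xQ q lam n (regT d n) := hx
  have he : ((d : ℝ) * lam ^ 2 - 1) / (4 * ((q : ℝ) - 1) * ((d : ℝ) * lam ^ 2))
      = ((d : ℝ) * lam ^ 2 - 1) / (2 * ((d : ℝ) * lam ^ 2)) / ((q : ℝ) - 1) / 2 := by
    field_simp
    ring
  rw [he]
  have h3 : ((d : ℝ) * lam ^ 2 - 1) / (2 * ((d : ℝ) * lam ^ 2)) / ((q : ℝ) - 1) ≤ xQ q lam n (regT d n) := by
    rw [div_le_iff₀ hq1]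
    linarith
  linarith

end Vale.Agent.P154
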