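import Vale.Agent.P154.KSQ.Low
import Vale.Agent.P154.KS.A1

/-!
# P154, general `q`, Kesten-Stigum direction: lower bounds on a fixed tree

With `UU x = max (1 - 2 x) 0` and `y = (q - 1) x` the two lower bounds of the previous file give `UU y'' ≤ UU y * UU y'`, hence
`UU ((q - 1) XKQ) ≤ ∏ j, UU ((q - 1) lam^2 xQ (c j))`.  Also `aT ≥ xQ / 2` and `xQ = 1` at depth `0`.
-/

namespace Vale.Agent.P154

open Finset

variable {q : ℕ} {lam : ℝ}

theorem UU_mergeQ (hq : 2 ≤ q) {ι κ : Type} [Fintype ι] [Fintype κ] {w : ι → ℝ} {e : ι → Fin q → ℝ}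
    {v : κ → ℝ} {f : κ → Fin q → ℝ} (h : GoodQ q w e) (h' : GoodQ q v f) (hs : ∀ η i, -1 < f η i) :
    UU (((q : ℝ) - 1) * XQ (wMQ w e v f) (eMQ e f))
      ≤ UU (((q : ℝ) - 1) * XQ w e) * UU (((q : ℝ) - 1) * XQ v f) := by
  have hq2 : (2 : ℝ) ≤ q := by exact_mod_cast hq
  have hq1 : (0 : ℝ) ≤ (q : ℝ) - 1 := by linarith
  apply UU_merge
  · have := mul_le_mul_of_nonneg_left (merge_X_lowQ hq h h' hs) hq1
    calc _ = ((q : ℝ) - 1) * (XQ w e + XQ v f - 2 * ((q : ℝ) - 1) * XQ w e * XQ v f) := by ring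
      _ ≤ _ := this
  · exact mul_le_mul_of_nonneg_left (merge_X_monoQ hq h h' hs) hq1

theorem prodQ_low (hq : 2 ≤ q) {k : ℕ} {F : Fin (k + 1) → Type} [∀ j, Fintype (F j)]
    (W : ∀ j, F j → ℝ) (E : ∀ j, F j → Fin q → ℝ) (h : ∀ j, GoodQ q (W j) (E j))
    (hs : ∀ j η i, -1 < E j η i) :
    UU (((q : ℝ) - 1) * XQ (wDQ W E) (eDQ E)) ≤
      UU (((q : ℝ) - 1) * XQ (wDQ (fun j : Fin k => W j.succ) (fun j : Fin k => E j.succ))
        (eDQ (fun j : Fin k => E j.succ))) * UU (((q : ℝ) - 1) * XQ (W 0) (E 0)) := by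
  have hq0 : 0 < q := by omega
  have g := prodQ_good hq0 k (fun j => F j.succ) (fun j => W j.succ) (fun j => E j.succ)
    (fun j => h j.succ) (fun j => hs j.succ)
  have he : XQ (wDQ W E) (eDQ E) =
      XQ (wMQ (wDQ (fun j : Fin k => W j.succ) (fun j : Fin k => E j.succ))
        (eDQ (fun j : Fin k => E j.succ)) (W 0) (E 0)) (eMQ (eDQ (fun j : Fin k => E j.succ)) (E 0)) :=
    EQ_prodQ_succ hq0 W E hs alQ
  rw [he]
  exact UU_mergeQ hq g (h 0) (hs 0)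

theorem XKQ_succ_UU (hq : 2 ≤ q) (h0 : 0 ≤ lam) (h1 : lam < 1) (n k : ℕ) (c : Fin (k + 1) → GT n) :
    UU (((q : ℝ) - 1) * XKQ q lam n (k + 1) c) ≤
      UU (((q : ℝ) - 1) * XKQ q lam n k (Fin.tail c)) * UU (((q : ℝ) - 1) * (lam ^ 2 * xQ q lam n (c 0))) := by
  have hq0 : 0 < q := by omega
  have hst := prodQ_low hq (F := fun j => ConfT q n (c j)) (fun j => margT q lam n (c j))
    (fun j ξ i => lam * evQ q lam n (c j) ξ i)
    (fun j => (treeQ_good hq0 lam h0 h1 n (c j)).scale lam h0 h1.le)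
    (fun j η i => (treeQ_good hq0 lam h0 h1 n (c j)).scale_strict lam h0 h1 η i)
  have hsc : XQ (margT q lam n (c 0)) (fun ξ i => lam * evQ q lam n (c 0) ξ i)
      = lam ^ 2 * xQ q lam n (c 0) := XQ_scale _ _ lam
  rw [hsc] at hst
  exact hst

theorem XKQ_UU (hq : 2 ≤ q) (h0 : 0 ≤ lam) (h1 : lam < 1) (n k : ℕ) (c : Fin k → GT n) :
    UU (((q : ℝ) - 1) * XKQ q lam n k c) ≤ ∏ j, UU (((q : ℝ) - 1) * (lam ^ 2 * xQ q lam n (c j))) := by
  induction k with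
  | zero =>
    rw [XKQ_zero (by omega)]
    simp [UU]
  | succ k ih =>
    have hp : ∏ j, UU (((q : ℝ) - 1) * (lam ^ 2 * xQ q lam n (c j)))
        = (∏ j, UU (((q : ℝ) - 1) * (lam ^ 2 * xQ q lam n (Fin.tail c j))))
          * UU (((q : ℝ) - 1) * (lam ^ 2 * xQ q lam n (c 0))) := by
      rw [Fin.prod_univ_succ]
      exact mul_comm _ _
    rw [hp]
    refine (XKQ_succ_UU hq h0 h1 n k c).trans ?_
    exact mul_le_mul_of_nonneg_right (ih (Fin.tail c)) (UU_nonneg _)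

/-- pointwise: `alQ / 2 ≤ (1 / (2 q)) ∑ |e i|`, since `-1 ≤ e i ≤ q - 1`. -/
theorem GoodQ.tv_geQ (hq : 2 ≤ q) {ι : Type} [Fintype ι] {w : ι → ℝ} {e : ι → Fin q → ℝ}
    (h : GoodQ q w e) :
    XQ w e / 2 ≤ ∑ η, w η * ((1 / (2 * (q : ℝ))) * ∑ i, |e η i|) := by
  have hq2 : (2 : ℝ) ≤ q := by exact_mod_cast hq
  have hq0 : (0 : ℝ) < q := by linarith
  have hq1 : (0 : ℝ) < (q : ℝ) - 1 := by linarith
  have key : ∀ u : ℝ, -1 ≤ u → u ≤ (q : ℝ) - 1 → u ^ 2 ≤ ((q : ℝ) - 1) * |u| := by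
    intro u hl hu
    rcases le_total 0 u with h | h
    · rw [abs_of_nonneg h]; nlinarith
    · rw [abs_of_nonpos h]; nlinarith
  unfold XQ EQ
  rw [Finset.sum_div]
  refine Finset.sum_le_sum fun η _ => ?_
  rw [mul_div_assoc]
  refine mul_le_mul_of_nonneg_left ?_ (h.pos η).le
  have hsum : ∑ i, e η i ^ 2 ≤ ((q : ℝ) - 1) * ∑ i, |e η i| := by
    rw [Finset.mul_sum]
    exact Finset.sum_le_sum fun i _ => key _ (h.ge η i) (coord_le hq _ (h.zero η) (h.ge η) i)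
  unfold alQ
  rw [div_div, div_le_iff₀ (by positivity)]
  calc ∑ i, e η i ^ 2 ≤ ((q : ℝ) - 1) * ∑ i, |e η i| := hsum
    _ = (1 / (2 * (q : ℝ)) * ∑ i, |e η i|) * ((q : ℝ) * ((q : ℝ) - 1) * 2) := by
      field_simp

theorem aT_geQ (hq : 2 ≤ q) (h0 : 0 ≤ lam) (h1 : lam < 1) (n : ℕ) (T : GT n) :
    xQ q lam n T / 2 ≤ aT q lam n T := by
  rw [aT_eqQ (by omega)]
  exact (treeQ_good (by omega) lam h0 h1 n T).tv_geQ hq

theorem baseQ_X (hq : 2 ≤ q) (lam : ℝ) (T : GT 0) : xQ q lam 0 T = 1 := by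
  have hq0 : 0 < q := by omega
  have hq2 : (2 : ℝ) ≤ q := by exact_mod_cast hq
  have hq' : (q : ℝ) ≠ 0 := by positivity
  have hq1 : (q : ℝ) - 1 ≠ 0 := by
    intro hc
    linarith
  have hal : ∀ η : Fin q, alQ (evQ q lam 0 T η) = 1 := by
    intro η
    unfold alQ
    have e1 : ∀ i, evQ q lam 0 T η i ^ 2
        = 1 + ((q : ℝ) ^ 2 - 2 * q) * (if η = i then 1 else 0) := by
      intro i
      rw [evQ_zero hq0]
      split_ifs <;> ring
    simp only [e1, Finset.sum_add_distrib, ← Finset.mul_sum]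
    simp
    field_simp
    ring
  unfold xQ XQ EQ
  have : ∀ η : ConfT q 0 T, margT q lam 0 T η * alQ (evQ q lam 0 T η) = margT q lam 0 T η := by
    intro η
    rw [hal η, mul_one]
  rw [Finset.sum_congr rfl (fun η _ => this η)]
  exact (baseQ_good hq0 lam T).tot

end Vale.Agent.P154
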